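import Mathlib

/-! P305, sphere part (owner helper735): closed spherical caps are disjoint iff the angle
of the centres is larger than the sum of the radii. -/

namespace Vale.Agent.P305.R2.H347

open InnerProductGeometry Real

/-- Euclidean three-space. -/
abbrev E := EuclideanSpace ℝ (Fin 3)

/-- The closed spherical cap. -/
def cap (c : E) (rho : ℝ) : Set E := {x | ‖x‖ = 1 ∧ angle c x ≤ rho}

theorem exists_orth {c : E} (hc : ‖c‖ = 1) : ∃ e : E, ‖e‖ = 1 ∧ inner ℝ c e = 0 := by
  have hfin : Module.finrank ℝ E = 3 := by simp [E]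
  have hc0 : c ≠ 0 := by rintro rfl; simp at hc
  have h1 : Module.finrank ℝ (Submodule.span ℝ {c}) = 1 := finrank_span_singleton hc0
  have h2 := Submodule.finrank_add_finrank_orthogonal (Submodule.span ℝ {c})
  have h3 : 0 < Module.finrank ℝ (Submodule.span ℝ {c})ᗮ := by omega
  obtain ⟨⟨v, hv⟩, hv0⟩ := Module.finrank_pos_iff_exists_ne_zero.1 h3
  have hv0' : v ≠ 0 := fun h => hv0 (by ext1; exact h)
  have hn : ‖v‖ ≠ 0 := norm_ne_zero_iff.2 hv0'
  refine ⟨(‖v‖)⁻¹ • v, ?_, ?_⟩
  · rw [norm_smul, norm_inv, norm_norm, inv_mul_cancel₀ hn]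
  · have : inner ℝ c v = 0 := (Submodule.mem_orthogonal_singleton_iff_inner_right.1 hv)
    rw [inner_smul_right, this, mul_zero]

theorem exists_frame {c c' : E} (hc : ‖c‖ = 1) (hc' : ‖c'‖ = 1) (h0 : 0 < angle c c') :
    ∃ e : E, ‖e‖ = 1 ∧ inner ℝ c e = 0 ∧
      c' = cos (angle c c') • c + sin (angle c c') • e := by
  have hin : inner ℝ c c' = cos (angle c c') := by
    have := cos_angle_mul_norm_mul_norm c c'
    rw [hc, hc'] at this
    simpa using this.symm
  have hcc : inner ℝ c c = (1 : ℝ) := by rw [real_inner_self_eq_norm_sq, hc]; norm_num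
  have hcc' : inner ℝ c' c' = (1 : ℝ) := by rw [real_inner_self_eq_norm_sq, hc']; norm_num
  set θ := angle c c' with hθ
  by_cases hs : sin θ = 0
  · have hle : θ ≤ π := angle_le_pi _ _
    have hpi : θ = π := by
      by_contra hne
      have := sin_pos_of_pos_of_lt_pi h0 (lt_of_le_of_ne hle hne)
      linarith
    obtain ⟨e, he, hce⟩ := exists_orth hc
    refine ⟨e, he, hce, ?_⟩
    rw [hs, hpi, cos_pi, zero_smul, add_zero, neg_one_smul]
    have hi : inner ℝ c c' = (-1 : ℝ) := by rw [hin, hpi, cos_pi]
    have : ‖c' + c‖ ^ 2 = 0 := by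
      rw [norm_add_sq_real, real_inner_comm, hi, hc, hc']; norm_num
    have h0 : c' + c = 0 := by simpa using this
    exact eq_neg_of_add_eq_zero_left h0
  · have hsp : 0 < sin θ := lt_of_le_of_ne (sin_angle_nonneg _ _) (Ne.symm hs)
    refine ⟨(sin θ)⁻¹ • (c' - cos θ • c), ?_, ?_, ?_⟩
    · have h2 : ‖c' - cos θ • c‖ ^ 2 = sin θ ^ 2 := by
        rw [norm_sub_sq_real, inner_smul_right, real_inner_comm, hin, norm_smul, hc, hc',
          Real.norm_eq_abs, mul_one, sq_abs]
        have := sin_sq_add_cos_sq θ
        linarith [this]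
      have h3 : ‖c' - cos θ • c‖ = sin θ := by
        have := abs_eq_abs.2 (sq_eq_sq_iff_eq_or_eq_neg.1 h2)
        rwa [abs_of_nonneg (norm_nonneg _), abs_of_pos hsp] at this
      rw [norm_smul, h3, norm_inv, Real.norm_of_nonneg hsp.le, inv_mul_cancel₀ hs]
    · rw [inner_smul_right, inner_sub_right, inner_smul_right, hin, hcc]; ring
    · rw [smul_smul, mul_inv_cancel₀ hs, one_smul]; abel

theorem cap_disjoint_iff {c c' : E} (hc : ‖c‖ = 1) (hc' : ‖c'‖ = 1) {rho rho' : ℝ}
    (h : 0 ≤ rho) (h' : 0 ≤ rho') :
    Disjoint (cap c rho) (cap c' rho') ↔ rho + rho' < angle c c' := by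
  have hc0 : c ≠ 0 := by rintro rfl; simp at hc
  have hc0' : c' ≠ 0 := by rintro rfl; simp at hc'
  constructor
  · intro hd
    by_contra hcon
    rw [not_lt] at hcon
    by_cases h1 : angle c c' ≤ rho
    · refine Set.disjoint_left.1 hd (show c' ∈ cap c rho from ⟨hc', h1⟩) ⟨hc', ?_⟩
      rw [angle_self hc0']; exact h'
    · rw [not_le] at h1
      have hpi : angle c c' ≤ π := angle_le_pi _ _
      obtain ⟨e, he, hce, hcc'⟩ := exists_frame hc hc' (lt_of_le_of_lt h h1)
      set θ := angle c c' with hθ
      have hcc : inner ℝ c c = (1 : ℝ) := by rw [real_inner_self_eq_norm_sq, hc]; norm_num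
      have hee : inner ℝ e e = (1 : ℝ) := by rw [real_inner_self_eq_norm_sq, he]; norm_num
      have hec : inner ℝ e c = (0 : ℝ) := by rw [real_inner_comm]; exact hce
      set x : E := cos rho • c + sin rho • e with hx
      have hxx : inner ℝ x x = (1 : ℝ) := by
        rw [hx, inner_add_left, inner_add_right, inner_add_right, inner_smul_left,
          inner_smul_left, inner_smul_left, inner_smul_left, inner_smul_right, inner_smul_right,
          inner_smul_right, inner_smul_right, hcc, hee, hce, hec]
        simp only [conj_trivial]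
        have := sin_sq_add_cos_sq rho
        nlinarith [this]
      have hxn : ‖x‖ = 1 := by
        rw [real_inner_self_eq_norm_sq] at hxx
        have h2 : ‖x‖ ^ 2 = 1 ^ 2 := by rw [hxx]; norm_num
        exact (pow_left_inj₀ (norm_nonneg _) zero_le_one two_ne_zero).1 h2
      have hcx : inner ℝ c x = cos rho := by
        rw [hx, inner_add_right, inner_smul_right, inner_smul_right, hcc, hce]; ring
      have hcx' : inner ℝ c' x = cos (θ - rho) := by
        rw [hcc', hx, inner_add_left, inner_add_right, inner_add_right, inner_smul_left,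
          inner_smul_left, inner_smul_left, inner_smul_left, inner_smul_right, inner_smul_right,
          inner_smul_right, inner_smul_right, hcc, hee, hce, hec, cos_sub]
        simp only [conj_trivial]
        ring
      have a1 : angle c x = rho := by
        unfold angle
        rw [hc, hxn, hcx, mul_one, div_one, arccos_cos h (h1.le.trans hpi)]
      have a2 : angle c' x = θ - rho := by
        unfold angle
        rw [hc', hxn, hcx', mul_one, div_one, arccos_cos (by linarith) (by linarith)]
      exact Set.disjoint_left.1 hd (show x ∈ cap c rho from ⟨hxn, a1.le⟩)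
        ⟨hxn, by rw [a2]; linarith⟩
  · intro hlt
    rw [Set.disjoint_left]
    rintro x ⟨_, hx1⟩ ⟨_, hx2⟩
    have := angle_le_angle_add_angle c x c'
    rw [angle_comm x c'] at this
    linarith

end Vale.Agent.P305.R2.H347
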