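import Mathlib

/-! P305, w3 row 147 (GeodesicDisks, owner helper791), part (2): the sign lemma for closed
walks in three-space. -/

namespace Vale.Agent.P305.R2.H347

abbrev V := Fin 3 → ℝ

/-- The determinant of three vectors. -/
def D (p q r : V) : ℝ :=
  p 0 * (q 1 * r 2 - q 2 * r 1) - p 1 * (q 0 * r 2 - q 2 * r 0) + p 2 * (q 0 * r 1 - q 1 * r 0)

theorem D_rot (p q r : V) : D q r p = D p q r := by unfold D; ring

theorem D_swap (p q r : V) : D q p r = - D p q r := by unfold D; ring

theorem D_gp (x a b c d : V) : D x a b * D x c d - D x a c * D x b d + D x a d * D x b c = 0 := by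
  unfold D; ring

theorem D_cramer (p q r s : V) (i : Fin 3) :
    D q r s * p i - D p r s * q i + D p q s * r i - D p q r * s i = 0 := by
  fin_cases i <;> simp [D] <;> ring

/-- The sign of the determinant, `true` if negative. -/
noncomputable def n (p q r : V) : Bool := decide (D p q r < 0)

theorem n_rot (p q r : V) : n q r p = n p q r := by unfold n; rw [D_rot]

theorem n_swap {p q r : V} (h : D p q r ≠ 0) : n q p r = !(n p q r) := by
  unfold n
  rw [D_swap]
  rcases lt_or_gt_of_ne h with h | h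
  · simp [h, h.le]
  · simp [h, h.le]

theorem mul_neg_iff_xor {x y : ℝ} (hx : x ≠ 0) (hy : y ≠ 0) :
    (x * y < 0) ↔ (xor (decide (x < 0)) (decide (y < 0))) = true := by
  rcases lt_or_gt_of_ne hx with h | h <;> rcases lt_or_gt_of_ne hy with k | k
  · simp [h, k, (mul_pos_of_neg_of_neg h k).le]
  · simp [h, k.le, mul_neg_of_neg_of_pos h k]
  · simp [h.le, k, mul_neg_of_pos_of_neg h k]
  · simp [not_lt.2 h.le, not_lt.2 k.le, not_lt.2 (mul_pos h k).le]

/-- Sign form of a three-term relation: x - y + z = 0. -/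
theorem three {x y z : ℝ} (hx : x ≠ 0) (hy : y ≠ 0) (hz : z ≠ 0) (h : x - y + z = 0) :
    ¬ (decide (x < 0) = !(decide (y < 0)) ∧ decide (x < 0) = decide (z < 0)) := by
  rintro ⟨h1, h2⟩
  rcases lt_or_gt_of_ne hx with a | a <;> rcases lt_or_gt_of_ne hy with b | b <;>
    rcases lt_or_gt_of_ne hz with c | c
  all_goals first
    | (simp [a, b, not_lt.2 a.le, not_lt.2 b.le] at h1; done)
    | (simp [a, c, not_lt.2 a.le, not_lt.2 c.le] at h2; done)
    | linarith

theorem gp_bool {x a b c d : V} (h1 : D x a b ≠ 0) (h2 : D x c d ≠ 0) (h3 : D x a c ≠ 0)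
    (h4 : D x b d ≠ 0) (h5 : D x a d ≠ 0) (h6 : D x b c ≠ 0) :
    ¬ (xor (n x a b) (n x c d) = !(xor (n x a c) (n x b d)) ∧
      xor (n x a b) (n x c d) = xor (n x a d) (n x b c)) := by
  have key := three (mul_ne_zero h1 h2) (mul_ne_zero h3 h4) (mul_ne_zero h5 h6) (D_gp x a b c d)
  have e1 : decide (D x a b * D x c d < 0) = xor (n x a b) (n x c d) := by
    rw [Bool.eq_iff_iff, decide_eq_true_iff]; exact mul_neg_iff_xor h1 h2
  have e2 : decide (D x a c * D x b d < 0) = xor (n x a c) (n x b d) := by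
    rw [Bool.eq_iff_iff, decide_eq_true_iff]; exact mul_neg_iff_xor h3 h4
  have e3 : decide (D x a d * D x b c < 0) = xor (n x a d) (n x b c) := by
    rw [Bool.eq_iff_iff, decide_eq_true_iff]; exact mul_neg_iff_xor h5 h6
  rw [e1, e2, e3] at key
  exact key

/-- The Boolean core of the five-point lemma. -/
theorem bool_core : ∀ (pqo pqr pqs qor qos opr ops rsp rsq rso : Bool),
    -- x = p; a b c d = q o r s
    ¬ (xor pqo rsp = !(xor pqr (!ops)) ∧ xor pqo rsp = xor pqs (!opr)) →
    -- x = q; a b c d = o p r s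
    ¬ (xor pqo rsq = !(xor qor (!pqs)) ∧ xor pqo rsq = xor qos (!pqr)) →
    -- x = o; a b c d = p q r s
    ¬ (xor pqo rso = !(xor opr (!qos)) ∧ xor pqo rso = xor ops (!qor)) →
    -- x = r; a b c d = p q o s
    ¬ (xor pqr (!rso) = !(xor (!opr) (!rsq)) ∧ xor pqr (!rso) = xor (!rsp) qor) →
    -- x = s; a b c d = p q o r
    ¬ (xor pqs rso = !(xor (!ops) rsq) ∧ xor pqs rso = xor rsp qos) →
    xor (xor (xor pqr pqs && xor rsp rsq) (xor qor qos && xor rsq rso))
      (xor opr ops && xor rso rsp) =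
    xor ((pqr == qor) && (qor == opr)) ((pqs == qos) && (qos == ops)) := by
  decide +kernel

/-- Both separations, for the pairs `p, q` and `r, s`. -/
noncomputable def X (p q r s : V) : Bool :=
  xor (n p q r) (n p q s) && xor (n r s p) (n r s q)

/-- The line of `r` lies in the cone of `p, q, o`. -/
noncomputable def G (p q o r : V) : Bool := (n p q r == n q o r) && (n q o r == n o p r)

theorem D_swap' {p q r : V} (h : D p q r ≠ 0) : D q p r ≠ 0 := by
  rw [D_swap]; exact neg_ne_zero.2 h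

theorem five {p q o r s : V} (h1 : D p q o ≠ 0) (h2 : D p q r ≠ 0) (h3 : D p q s ≠ 0)
    (h4 : D q o r ≠ 0) (h5 : D q o s ≠ 0) (h6 : D o p r ≠ 0) (h7 : D o p s ≠ 0)
    (h8 : D r s p ≠ 0) (h9 : D r s q ≠ 0) (h10 : D r s o ≠ 0) :
    xor (xor (X p q r s) (X q o r s)) (X o p r s) = xor (G p q o r) (G p q o s) := by
  have k8 : D p r s ≠ 0 := by rw [← D_rot p r s]; exact h8
  have k9 : D q r s ≠ 0 := by rw [← D_rot q r s]; exact h9
  have k10 : D o r s ≠ 0 := by rw [← D_rot o r s]; exact h10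
  have e1 : n p r s = n r s p := (n_rot p r s).symm
  have e2 : n q r s = n r s q := (n_rot q r s).symm
  have e3 : n o r s = n r s o := (n_rot o r s).symm
  have f1 : n q o p = n p q o := n_rot p q o
  have f2 : n o p q = n p q o := (n_rot o p q).symm
  have f3 : n r p q = n p q r := (n_rot r p q).symm
  have f4 : n s p q = n p q s := (n_rot s p q).symm
  have d1 : D q o p ≠ 0 := by rw [D_rot p q o]; exact h1
  have d2 : D o p q ≠ 0 := by rw [← D_rot o p q]; exact h1
  have d3 : D r p q ≠ 0 := by rw [← D_rot r p q]; exact h2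
  have d4 : D s p q ≠ 0 := by rw [← D_rot s p q]; exact h3
  -- p
  have P := gp_bool (x := p) (a := q) (b := o) (c := r) (d := s) h1 k8 h2 (D_swap' h7) h3
    (D_swap' h6)
  rw [e1, n_swap h7, n_swap h6] at P
  have Q := gp_bool (x := q) (a := o) (b := p) (c := r) (d := s) d1 k9 h4 (D_swap' h3) h5
    (D_swap' h2)
  rw [e2, f1, n_swap h3, n_swap h2] at Q
  have O := gp_bool (x := o) (a := p) (b := q) (c := r) (d := s) d2 k10 h6 (D_swap' h5) h7
    (D_swap' h4)
  rw [e3, f2, n_swap h5, n_swap h4] at O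
  have g1 : n r p o = !(n o p r) := by rw [← n_rot r p o, n_swap h6]
  have g2 : n s p o = !(n o p s) := by rw [← n_rot s p o, n_swap h7]
  have g1' : D r p o ≠ 0 := by rw [← D_rot r p o]; exact D_swap' h6
  have g2' : D s p o ≠ 0 := by rw [← D_rot s p o]; exact D_swap' h7
  have g3 : n r q o = n q o r := (n_rot r q o).symm
  have g3' : D r q o ≠ 0 := by rw [← D_rot r q o]; exact h4
  have g4 : n s q o = n q o s := (n_rot s q o).symm
  have g4' : D s q o ≠ 0 := by rw [← D_rot s q o]; exact h5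
  have R := gp_bool (x := r) (a := p) (b := q) (c := o) (d := s) d3 (D_swap' k10) g1'
    (D_swap' k9) (D_swap' k8) g3'
  rw [f3, n_swap k10, e3, g1, n_swap k9, e2, n_swap k8, e1, g3] at R
  have l1 : n s o r = n r s o := by rw [← n_rot s o r, ← n_rot o r s]
  have l1' : D s o r ≠ 0 := by rw [← D_rot s o r]; exact k10
  have l2 : n s q r = n r s q := by rw [← n_rot s q r, ← n_rot q r s]
  have l2' : D s q r ≠ 0 := by rw [← D_rot s q r]; exact k9
  have l3 : n s p r = n r s p := by rw [← n_rot s p r, ← n_rot p r s]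
  have l3' : D s p r ≠ 0 := by rw [← D_rot s p r]; exact k8
  have S := gp_bool (x := s) (a := p) (b := q) (c := o) (d := r) d4 l1' g2' l2' l3' g4'
  rw [f4, l1, g2, l2, l3, g4] at S
  exact bool_core _ _ _ _ _ _ _ _ _ _ P Q O R S

/-- The value in `ZMod 2`. -/
def c (b : Bool) : ZMod 2 := if b then 1 else 0

theorem c_xor (a b : Bool) : c (xor a b) = c a + c b := by revert a b; decide
theorem c_and (a b : Bool) : c (a && b) = c a * c b := by revert a b; decide

theorem sum_shift {s : ℕ} [NeZero s] (f : ZMod s → ZMod 2) : ∑ i, f (i + 1) = ∑ i, f i :=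
  Equiv.sum_comp (Equiv.addRight (1 : ZMod s)) f

theorem sum_tele {s : ℕ} [NeZero s] (f : ZMod s → ZMod 2) : ∑ i, (f i + f (i + 1)) = 0 := by
  rw [Finset.sum_add_distrib, sum_shift]
  exact CharTwo.add_self_eq_zero _

theorem core {s t : ℕ} [NeZero s] [NeZero t] (hs : Odd s) (ht : Odd t) (a : ZMod s → V)
    (b : ZMod t → V) (o : V) (h1 : ∀ i j, D (a i) (a (i + 1)) (b j) ≠ 0)
    (h2 : ∀ i j, D (b j) (b (j + 1)) (a i) ≠ 0) (h3 : ∀ i, D (a i) (a (i + 1)) o ≠ 0)
    (h4 : ∀ j, D (b j) (b (j + 1)) o ≠ 0) (h5 : ∀ i j, D o (a i) (b j) ≠ 0) :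
    ∃ i j, n (a i) (a (i + 1)) (b j) = n (a i) (a (i + 1)) (b (j + 1)) ∧
      n (b j) (b (j + 1)) (a i) = n (b j) (b (j + 1)) (a (i + 1)) := by
  by_contra hcon
  push Not at hcon
  have one : ∀ i j, c (xor (n (a i) (a (i + 1)) (b j)) (n (a i) (a (i + 1)) (b (j + 1)))) +
      c (xor (n (b j) (b (j + 1)) (a i)) (n (b j) (b (j + 1)) (a (i + 1)))) +
      c (X (a i) (a (i + 1)) (b j) (b (j + 1))) = 1 := by
    intro i j
    have := hcon i j
    revert this
    unfold X
    generalize n (a i) (a (i + 1)) (b j) = x1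
    generalize n (a i) (a (i + 1)) (b (j + 1)) = x2
    generalize n (b j) (b (j + 1)) (a i) = x3
    generalize n (b j) (b (j + 1)) (a (i + 1)) = x4
    revert x1 x2 x3 x4
    decide
  have S1 : ∑ i, ∑ j, c (xor (n (a i) (a (i + 1)) (b j)) (n (a i) (a (i + 1)) (b (j + 1)))) = 0 := by
    apply Finset.sum_eq_zero
    intro i _
    simp only [c_xor]
    exact sum_tele (fun j => c (n (a i) (a (i + 1)) (b j)))
  have S2 : ∑ i, ∑ j, c (xor (n (b j) (b (j + 1)) (a i)) (n (b j) (b (j + 1)) (a (i + 1)))) = 0 := by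
    rw [Finset.sum_comm]
    apply Finset.sum_eq_zero
    intro j _
    simp only [c_xor]
    exact sum_tele (fun i => c (n (b j) (b (j + 1)) (a i)))
  have S3 : ∑ i, ∑ j, c (X (a i) (a (i + 1)) (b j) (b (j + 1))) = 0 := by
    have F : ∀ i j, c (X (a i) (a (i + 1)) (b j) (b (j + 1))) =
        (c (X o (a i) (b j) (b (j + 1))) + c (X (a (i + 1)) o (b j) (b (j + 1)))) +
        (c (G (a i) (a (i + 1)) o (b j)) + c (G (a i) (a (i + 1)) o (b (j + 1)))) := by
      intro i j
      have r1 : ∀ i j, D (a i) o (b j) ≠ 0 := fun i j => D_swap' (h5 i j)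
      have := five (p := a i) (q := a (i + 1)) (o := o) (r := b j) (s := b (j + 1)) (h3 i)
        (h1 i j) (h1 i (j + 1)) (r1 _ _) (r1 _ _) (h5 _ _) (h5 _ _) (h2 _ _) (h2 _ _) (h4 _)
      revert this
      generalize X (a i) (a (i + 1)) (b j) (b (j + 1)) = x1
      generalize X (a (i + 1)) o (b j) (b (j + 1)) = x2
      generalize X o (a i) (b j) (b (j + 1)) = x3
      generalize G (a i) (a (i + 1)) o (b j) = x4
      generalize G (a i) (a (i + 1)) o (b (j + 1)) = x5
      revert x1 x2 x3 x4 x5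
      decide
    have E : ∀ i j, X (a i) o (b j) (b (j + 1)) = X o (a i) (b j) (b (j + 1)) := by
      intro i j
      unfold X
      rw [n_swap (h5 i j), n_swap (h5 i (j + 1))]
      generalize n o (a i) (b j) = x1
      generalize n o (a i) (b (j + 1)) = x2
      generalize n (b j) (b (j + 1)) (a i) = x3
      generalize n (b j) (b (j + 1)) o = x4
      revert x1 x2 x3 x4
      decide
    simp only [F, E]
    have T1 : ∑ i, ∑ j, (c (X o (a i) (b j) (b (j + 1))) +
        c (X o (a (i + 1)) (b j) (b (j + 1)))) = 0 := by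
      rw [Finset.sum_comm]
      apply Finset.sum_eq_zero
      intro j _
      exact sum_tele (fun i => c (X o (a i) (b j) (b (j + 1))))
    have T2 : ∑ i, ∑ j, (c (G (a i) (a (i + 1)) o (b j)) +
        c (G (a i) (a (i + 1)) o (b (j + 1)))) = 0 := by
      apply Finset.sum_eq_zero
      intro i _
      exact sum_tele (fun j => c (G (a i) (a (i + 1)) o (b j)))
    calc _ = ∑ i, ∑ j, (c (X o (a i) (b j) (b (j + 1))) +
        c (X o (a (i + 1)) (b j) (b (j + 1)))) + ∑ i, ∑ j, (c (G (a i) (a (i + 1)) o (b j)) +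
        c (G (a i) (a (i + 1)) o (b (j + 1)))) := by
          rw [← Finset.sum_add_distrib]
          refine Finset.sum_congr rfl fun i _ => ?_
          rw [← Finset.sum_add_distrib]
      _ = 0 := by rw [T1, T2, add_zero]
  have S : ∑ _i : ZMod s, ∑ _j : ZMod t, (1 : ZMod 2) = 0 := by
    calc _ = ∑ i, ∑ j, (c (xor (n (a i) (a (i + 1)) (b j)) (n (a i) (a (i + 1)) (b (j + 1)))) +
          c (xor (n (b j) (b (j + 1)) (a i)) (n (b j) (b (j + 1)) (a (i + 1)))) +
          c (X (a i) (a (i + 1)) (b j) (b (j + 1)))) := by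
            refine Finset.sum_congr rfl fun i _ => Finset.sum_congr rfl fun j _ => ?_
            rw [one]
      _ = 0 := by
            simp only [Finset.sum_add_distrib] at S1 S2 S3 ⊢
            rw [S1, S2, S3]
            decide
  simp only [Finset.sum_const, Finset.card_univ, ZMod.card, nsmul_eq_mul, mul_one] at S
  rw [← Nat.cast_mul, ZMod.natCast_eq_zero_iff_even] at S
  exact (Nat.not_even_iff_odd.2 (hs.mul ht)) S

end Vale.Agent.P305.R2.H347
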